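import Vale.Agent.P252.Final

open scoped ContDiff

namespace Vale.Agent.Results.P252.A_Full

open Vale.Agent.P252

/-- The affine Bernstein problem in every dimension `n ≥ 3`: the Bernstein statement for Euclidean
complete affine maximal graphs holds exactly when `n ≤ 9`; for `n ≥ 10` there is even an entire
smooth counterexample. -/
theorem result (n : ℕ) (hn : 3 ≤ n) :
    ((∀ (Ω : Set (EuclideanSpace ℝ (Fin n))) (u : EuclideanSpace ℝ (Fin n) → ℝ),
        IsOpen Ω → Ω.Nonempty → Convex ℝ Ω → ContDiffOn ℝ ∞ u Ω →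
        (∀ x ∈ Ω, (hess u x).PosDef) → (∀ x ∈ Ω, amOp u x = 0) → EuclideanComplete Ω u →
        Ω = Set.univ ∧ ∃ (A : Matrix (Fin n) (Fin n) ℝ) (b : Fin n → ℝ) (c : ℝ), A.PosDef ∧
          ∀ x, u x = (1 / 2) * (∑ i, ∑ j, A i j * x i * x j) + (∑ i, b i * x i) + c)
      ↔ n ≤ 9) ∧
    (10 ≤ n → ∃ u : EuclideanSpace ℝ (Fin n) → ℝ, ContDiff ℝ ∞ u ∧ (∀ x, (hess u x).PosDef) ∧
      (∀ x, amOp u x = 0) ∧ EuclideanComplete Set.univ u ∧
      ¬ ∃ (A : Matrix (Fin n) (Fin n) ℝ) (b : Fin n → ℝ) (c : ℝ), ∀ x,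
        u x = (1 / 2) * (∑ i, ∑ j, A i j * x i * x j) + (∑ i, b i * x i) + c) := by
  refine ⟨⟨fun h => ?_, fun h9 => rigidity n hn h9⟩, fun h10 => ?_⟩
  · by_contra h9
    obtain ⟨u, h1, h2, h3, h4⟩ := exists_entire n (by omega)
    obtain ⟨-, A, b, c, -, h5⟩ := h Set.univ u isOpen_univ Set.univ_nonempty convex_univ
      h1.contDiffOn (fun x _ => h2 x) (fun x _ => h3 x) (complete_univ h1)
    exact h4 ⟨A, b, c, h5⟩
  · obtain ⟨u, h1, h2, h3, h4⟩ := exists_entire n h10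
    exact ⟨u, h1, h2, h3, complete_univ h1, h4⟩

end Vale.Agent.Results.P252.A_Full
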