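import Vale.Agent.P252.Main

open scoped ContDiff

namespace Vale.Agent.Results.P252.A_counter

open Vale.Agent.P252

/-- In every dimension `n ≥ 10` there is a smooth function on all of `ℝ^n` with positive definite
Hessian that solves the affine maximal equation and is not a quadratic polynomial. -/
theorem result (n : ℕ) (hn : 10 ≤ n) :
    ∃ u : EuclideanSpace ℝ (Fin n) → ℝ, ContDiff ℝ ∞ u ∧ (∀ x, (hess u x).PosDef) ∧
      (∀ x, amOp u x = 0) ∧
      ¬ ∃ (A : Matrix (Fin n) (Fin n) ℝ) (b : Fin n → ℝ) (c : ℝ), ∀ x,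
        u x = (1 / 2) * (∑ i, ∑ j, A i j * x i * x j) + (∑ i, b i * x i) + c :=
  exists_entire n hn

end Vale.Agent.Results.P252.A_counter
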